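import Vale.Agent.Lib.P371.Fin

namespace Vale.Agent.Results.P371.LiebThirring

/-- For 1 ≤ γ < 3/2 the scalar one-dimensional Lieb-Thirring constant satisfies
L_γ(1) ≤ 1.178 L^cl_γ. -/
theorem result : ∀ γ : ℝ, 1 ≤ γ → γ < 3 / 2 →
    _root_.P371.LT γ ≤ ENNReal.ofReal (1.178 * _root_.P371.Lcl γ) :=
  fun _ hγ _ => _root_.P371.LT_le hγ

end Vale.Agent.Results.P371.LiebThirring
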