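import Vale.Agent.Lib.P371H29.Main

/-!
Lieb-Thirring inequalities in one dimension for the two lowest eigenvalues.
-/

open MeasureTheory Set
open P371H29

namespace Vale.Agent.Results.P371.TwoBoundStates

/-- Let `1/2 < γ ≤ 3/2` and let `W ≥ 0` be a potential on the real line with `W^(γ+1/2)`
integrable. Then any two negative eigenvalues `lam₁ < lam₂ < 0` of `-d²/dx² - W` satisfy
`|lam₁|^γ + theta γ |lam₂|^γ ≤ L1 γ ∫ W^(γ+1/2)`, and if `W` is unimodal the sum of `|lam|^γ` over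
any set of at most two negative eigenvalues is at most `L1 γ ∫ W^(γ+1/2)`. Negative eigenvalues
are simple. -/
theorem result (γ : ℝ) (hγ : 1 / 2 < γ) (hγ' : γ ≤ 3 / 2) :
    (1 / 2 * ((γ + 1 / 2) / (γ - 1 / 2)) ^ (γ - 1 / 2) ≤ theta γ ∧ theta γ ≤ 1 ∧
      2 / Real.sqrt 5 ≤ theta 1 ∧ theta (3 / 2) = 1) ∧
    ∀ W : ℝ → ℝ, (∀ x, 0 ≤ W x) → Integrable (fun x => W x ^ (γ + 1 / 2)) volume →
      (∀ lam₁ lam₂ : ℝ, lam₁ < lam₂ → IsNegEigenvalue W lam₁ → IsNegEigenvalue W lam₂ →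
        |lam₁| ^ γ + theta γ * |lam₂| ^ γ ≤ L1 γ * ∫ x, W x ^ (γ + 1 / 2)) ∧
      ((∃ c : ℝ, MonotoneOn W (Set.Iic c) ∧ AntitoneOn W (Set.Ici c)) →
        ∀ S : Finset ℝ, (∀ lam ∈ S, IsNegEigenvalue W lam) → S.card ≤ 2 →
          ∑ lam ∈ S, |lam| ^ γ ≤ L1 γ * ∫ x, W x ^ (γ + 1 / 2)) ∧
      (∀ (lam : ℝ) (ψ φ : ℝ → ℂ), lam < 0 → IsEigenfunction W lam ψ → IsEigenfunction W lam φ →
        ∃ c : ℂ, c ≠ 0 ∧ ∀ x, φ x = c * ψ x) := by
  refine ⟨⟨theta_lower hγ hγ', (theta_good hγ).2.1, theta_one, theta_three_halves⟩, ?_⟩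
  intro W hW hi
  refine ⟨fun lam₁ lam₂ h12 h1 h2 => main_two hγ hγ' hW hi h12 h1 h2 (theta_good hγ), ?_, ?_⟩
  · intro huni S hS hc
    apply sum_two _ (fun lam h => main_one hγ hW hi h)
      (fun a b hab ha hb => main_two_unimodal hγ hγ' hW hi huni hab ha hb) S hS hc
    have := L1_pos hγ
    have h2 : 0 ≤ ∫ x, W x ^ (γ + 1 / 2) :=
      integral_nonneg fun x => Real.rpow_nonneg (hW x) _
    positivity
  · intro lam ψ φ hlam h1 h2
    exact simple (pot_of_int (by linarith : 1 < γ + 1 / 2) hW hi) hlam h1 h2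

end Vale.Agent.Results.P371.TwoBoundStates
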